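import Vale.Agent.P372.Dat

open Vale.Agent.P372

theorem Vale.Agent.Results.P372.Counterexample.result :
    ∃ ρ : Matrix (Fin 10 × Fin 10) (Fin 10 × Fin 10) ℂ, IsState ρ ∧ ¬ IsSeparable ρ ∧
      (∃ (e : ℕ) (ψ : (Fin 10 × Fin 10) × Fin e → ℂ), IsPurification ψ ρ) ∧
      ∀ (e : ℕ) (ψ : (Fin 10 × Fin 10) × Fin e → ℂ), IsPurification ψ ρ →
        keyRate ψ = 0 ∧ ∀ n l ε, 1 ≤ l → Achieves ψ n l ε → 1 / 3 ≤ ε := by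
  obtain ⟨ρ, h1, h2, h3⟩ := Dat.exists_bad
  exact ⟨ρ, h1, h2, ⟨_, exists_purification h3.psd⟩, fun e ψ hψ =>
    ⟨keyRate_eq_zero ψ h3 hψ h1.2, fun n l ε hl h => one_third_le ψ h3 hψ h1.2 n l ε hl h⟩⟩
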