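import Vale.Agent.P372.Main

open scoped ComplexOrder
open Vale.Agent.P372

theorem Vale.Agent.Results.P372.LocalPPT.result :
    (∀ (m m' a b e : ℕ) (Φ : Matrix (Fin m) (Fin m) ℂ →ₗ[ℂ] Matrix (Fin a) (Fin a) ℂ)
      (Ψ : Matrix (Fin m') (Fin m') ℂ →ₗ[ℂ] Matrix (Fin b) (Fin b) ℂ)
      (ω : Matrix (Fin m × Fin m') (Fin m × Fin m') ℂ) (ψ : (Fin a × Fin b) × Fin e → ℂ),
      IsPPTMap Φ → IsPPTMap Ψ → ω.PosSemidef → (tensorApply Φ Ψ ω).trace = 1 →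
      IsPurification ψ (tensorApply Φ Ψ ω) →
      keyRate ψ = 0 ∧ ∀ n l ε, 1 ≤ l → Achieves ψ n l ε → 1 / 3 ≤ ε) ∧
    (∀ (a m b e : ℕ) (Φ : Matrix (Fin a) (Fin a) ℂ →ₗ[ℂ] Matrix (Fin m) (Fin m) ℂ)
      (Ψ : Matrix (Fin m) (Fin m) ℂ →ₗ[ℂ] Matrix (Fin b) (Fin b) ℂ)
      (ψ : (Fin a × Fin b) × Fin e → ℂ),
      IsPPTMap Φ → IsPPTMap Ψ → (choi (Ψ ∘ₗ Φ)).trace = 1 → IsPurification ψ (choi (Ψ ∘ₗ Φ)) →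
      keyRate ψ = 0) ∧
    ((∀ (a b e : ℕ) (ρ : Matrix (Fin a × Fin b) (Fin a × Fin b) ℂ)
        (ψ : (Fin a × Fin b) × Fin e → ℂ),
        IsState ρ → ¬ IsSeparable ρ → IsPurification ψ ρ → 0 < keyRate ψ) →
      ∀ (a m b : ℕ) (Φ : Matrix (Fin a) (Fin a) ℂ →ₗ[ℂ] Matrix (Fin m) (Fin m) ℂ)
        (Ψ : Matrix (Fin m) (Fin m) ℂ →ₗ[ℂ] Matrix (Fin b) (Fin b) ℂ),
        IsPPTMap Φ → IsPPTMap Ψ → (choi (Ψ ∘ₗ Φ)).trace = 1 → IsSeparable (choi (Ψ ∘ₗ Φ))) := by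
  refine ⟨fun m m' a b e Φ Ψ ω ψ hΦ hΨ hω htr hψ =>
    ⟨keyRate_eq_zero ψ (good_tensorApply hΦ hΨ hω) hψ htr,
      fun n l ε hl h => one_third_le ψ (good_tensorApply hΦ hΨ hω) hψ htr n l ε hl h⟩,
    fun a m b e Φ Ψ ψ hΦ hΨ htr hψ => keyRate_eq_zero ψ (good_comp hΦ hΨ) hψ htr,
    fun h a m b Φ Ψ hΦ hΨ htr => ?_⟩
  by_contra hs
  have hg := good_comp hΦ hΨ
  obtain ⟨ψ, hψ⟩ := exists_purification hg.psd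
  exact (h a b _ _ ψ ⟨hg.psd, htr⟩ hs hψ).ne' (keyRate_eq_zero ψ hg hψ htr)
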